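import Mathlib

/-!
# Helper lemmas for P228 (Hilbert-Smith): p-adic integers acting on lines

The elementary mechanism: a continuous injective self-map `g` of the real line whose
square has iterates returning to a point must satisfy `g (g t) = t`.
-/

open Filter Topology

namespace Vale.Agent.H61.P228

/-- powers of `p` times `b` tend to zero in the `p`-adic integers -/
theorem tendsto_pow_mul (p : ℕ) [Fact p.Prime] (b : ℤ_[p]) :
    Tendsto (fun m : ℕ => (p : ℤ_[p]) ^ m * b) atTop (𝓝 0) := by
  rw [tendsto_zero_iff_norm_tendsto_zero]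
  have h1 : ∀ m : ℕ, ‖(p : ℤ_[p]) ^ m * b‖ = ((p : ℝ)⁻¹) ^ m * ‖b‖ := by
    intro m
    rw [norm_mul, norm_pow, PadicInt.norm_p, inv_pow]
  simp_rw [h1]
  have hp : (1 : ℝ) < p := by exact_mod_cast (Fact.out : p.Prime).one_lt
  have h2 : Tendsto (fun m : ℕ => ((p : ℝ)⁻¹) ^ m) atTop (𝓝 0) := by
    apply tendsto_pow_atTop_nhds_zero_of_lt_one
    · positivity
    · exact inv_lt_one_of_one_lt₀ hp
  simpa using h2.mul_const ‖b‖

/-- If `h` is strictly increasing on the real line and some sequence of positive iterates of `h`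
at `t` converges to `t`, then `h t = t`. -/
theorem strictMono_iterate_limit_fixed (h : ℝ → ℝ) (hmono : StrictMono h) (k : ℕ → ℕ)
    (hk : ∀ m, 1 ≤ k m) (t : ℝ)
    (hlim : Tendsto (fun m : ℕ => h^[k m] t) atTop (𝓝 t)) : h t = t := by
  rcases lt_trichotomy (h t) t with hlt | heq | hgt
  · exfalso
    have hle : ∀ j : ℕ, 1 ≤ j → h^[j] t ≤ h t := by
      intro j hj
      induction j with
      | zero => omega
      | succ i ih =>
        rcases Nat.eq_zero_or_pos i with rfl | hi
        · simp
        · rw [Function.iterate_succ_apply']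
          have := ih hi
          exact (hmono.monotone this).trans (hmono.monotone hlt.le)
    have : t ≤ h t := le_of_tendsto' hlim (fun m => hle _ (hk m))
    exact absurd hlt (not_lt.mpr this)
  · exact heq
  · exfalso
    have hle : ∀ j : ℕ, 1 ≤ j → h t ≤ h^[j] t := by
      intro j hj
      induction j with
      | zero => omega
      | succ i ih =>
        rcases Nat.eq_zero_or_pos i with rfl | hi
        · simp
        · rw [Function.iterate_succ_apply']
          have := ih hi
          exact (hmono.monotone hgt.le).trans (hmono.monotone this)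
    have : h t ≤ t := ge_of_tendsto' hlim (fun m => hle _ (hk m))
    exact absurd hgt (not_lt.mpr this)

/-- If `g` is a continuous injective self-map of the real line and some sequence of positive
iterates of `g ∘ g` at `t` converges to `t`, then `g (g t) = t`. -/
theorem injective_iterate_limit_fixed (g : ℝ → ℝ) (hg : Continuous g)
    (hinj : Function.Injective g) (k : ℕ → ℕ) (hk : ∀ m, 1 ≤ k m) (t : ℝ)
    (hlim : Tendsto (fun m : ℕ => (g ∘ g)^[k m] t) atTop (𝓝 t)) : g (g t) = t := by
  have hmono : StrictMono (g ∘ g) := by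
    rcases hg.strictMono_of_inj hinj with h | h
    · exact h.comp h
    · exact h.comp h
  exact strictMono_iterate_limit_fixed (g ∘ g) hmono k hk t hlim

/-- One-dimensional core: a continuous action of the `p`-adic integers on the real line
is trivial on all elements of the form `c + c`. -/
theorem line_action_trivial (p : ℕ) [Fact p.Prime] (f : ℤ_[p] → ℝ → ℝ)
    (h0 : ∀ t, f 0 t = t) (hadd : ∀ a b t, f (a + b) t = f a (f b t))
    (hcont : ∀ t, Continuous (fun a => f a t)) (hcont2 : ∀ a, Continuous (f a))
    (c : ℤ_[p]) (t : ℝ) : f (c + c) t = t := by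
  have hinj : Function.Injective (f c) := by
    intro s s' h
    have := congrArg (f (-c)) h
    rwa [← hadd, ← hadd, neg_add_cancel, h0, h0] at this
  have hcomp : f (c + c) = f c ∘ f c := by
    funext s; exact hadd c c s
  set b := c + c with hb
  have hiter : ∀ m : ℕ, ∀ s, f ((m : ℤ_[p]) * b) s = (f b)^[m] s := by
    intro m
    induction m with
    | zero => intro s; simp [h0]
    | succ k ih =>
      intro s
      rw [Function.iterate_succ_apply', ← ih, ← hadd]
      congr 1
      push_cast
      ring
  have hlim : Tendsto (fun m : ℕ => f ((p : ℤ_[p]) ^ m * b) t) atTop (𝓝 t) := by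
    have := ((hcont t).tendsto 0).comp (tendsto_pow_mul p b)
    rw [h0] at this
    exact this
  have hlim' : Tendsto (fun m : ℕ => (f c ∘ f c)^[p ^ m] t) atTop (𝓝 t) := by
    refine hlim.congr (fun m => ?_)
    rw [← hcomp, ← hiter]
    push_cast
    rfl
  have hpos : ∀ m : ℕ, 1 ≤ p ^ m := fun m => Nat.one_le_pow _ _ (Fact.out : p.Prime).pos
  rw [hcomp]
  exact injective_iterate_limit_fixed (f c) (hcont2 c) hinj (fun m => p ^ m) hpos t hlim'

/-- Triangular actions on `ℝ^n`: the subgroup `2^n ℤ_p` acts trivially. -/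
theorem triangular_action_trivial (p : ℕ) [Fact p.Prime] (n : ℕ)
    (act : ℤ_[p] → (Fin n → ℝ) → (Fin n → ℝ))
    (h0 : ∀ x, act 0 x = x) (hadd : ∀ a b x, act (a + b) x = act a (act b x))
    (hcont : Continuous (fun q : ℤ_[p] × (Fin n → ℝ) => act q.1 q.2))
    (htri : ∀ (a : ℤ_[p]) (x y : Fin n → ℝ) (i : Fin n),
      (∀ j, j ≤ i → x j = y j) → act a x i = act a y i) :
    ∀ (a : ℤ_[p]) (x : Fin n → ℝ), act ((2 : ℤ_[p]) ^ n * a) x = x := by
  have key : ∀ i : ℕ, ∀ (a : ℤ_[p]) (x : Fin n → ℝ) (j : Fin n), (j : ℕ) < i →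
      act ((2 : ℤ_[p]) ^ i * a) x j = x j := by
    intro i
    induction i with
    | zero => intro a x j hj; omega
    | succ i ih =>
      intro a x j hj
      have hmul : (2 : ℤ_[p]) ^ (i + 1) * a = (2 : ℤ_[p]) ^ i * (a + a) := by ring
      rw [hmul]
      rcases Nat.lt_succ_iff_lt_or_eq.mp hj with hlt | heq
      · exact ih (a + a) x j hlt
      · -- the one-dimensional action on the coordinate `j`
        let F : ℤ_[p] → ℝ → ℝ := fun c t => act ((2 : ℤ_[p]) ^ i * c) (Function.update x j t) j
        have hF0 : ∀ t, F 0 t = t := by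
          intro t
          simp [F, h0]
        have hFadd : ∀ c c' t, F (c + c') t = F c (F c' t) := by
          intro c c' t
          have h1 : (2 : ℤ_[p]) ^ i * (c + c') = (2 : ℤ_[p]) ^ i * c + (2 : ℤ_[p]) ^ i * c' := by
            ring
          simp only [F]
          rw [h1, hadd]
          apply htri
          intro k hk
          rcases lt_or_eq_of_le hk with hkl | hke
          · have hkl' : (k : ℕ) < i := by
              have : (k : ℕ) < (j : ℕ) := hkl
              omega
            rw [ih c' _ k hkl']
            have hne : k ≠ j := ne_of_lt hkl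
            simp [Function.update_of_ne hne]
          · subst hke
            simp
        have hFc1 : ∀ t, Continuous (fun c => F c t) := by
          intro t
          have h2 : Continuous (fun c : ℤ_[p] =>
              (((2 : ℤ_[p]) ^ i * c, Function.update x j t) : ℤ_[p] × (Fin n → ℝ))) := by
            fun_prop
          exact (continuous_apply j).comp (hcont.comp h2)
        have hFc2 : ∀ c, Continuous (F c) := by
          intro c
          have h2 : Continuous (fun t : ℝ =>
              (((2 : ℤ_[p]) ^ i * c, Function.update x j t) : ℤ_[p] × (Fin n → ℝ))) := by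
            refine Continuous.prodMk continuous_const ?_
            exact continuous_const.update j continuous_id
          exact (continuous_apply j).comp (hcont.comp h2)
        have := line_action_trivial p F hF0 hFadd hFc1 hFc2 a (x j)
        simpa [F] using this
  intro a x
  funext j
  exact key n a x j j.isLt

/-- An element of a continuous `ℤ_p`-action on `X × ℝ` that maps every line `{x} × ℝ`
into itself has trivial double. -/
theorem fibre_preserving_trivial (p : ℕ) [Fact p.Prime] (X : Type*) [TopologicalSpace X]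
    (act : ℤ_[p] → X × ℝ → X × ℝ)
    (h0 : ∀ q, act 0 q = q) (hadd : ∀ a b q, act (a + b) q = act a (act b q))
    (hcont : Continuous (fun z : ℤ_[p] × (X × ℝ) => act z.1 z.2))
    (a : ℤ_[p]) (ha : ∀ x t, (act a (x, t)).1 = x) :
    ∀ q, act (a + a) q = q := by
  rintro ⟨x, t⟩
  -- the fibre map of `a` over `x`
  let g : ℝ → ℝ := fun s => (act a (x, s)).2
  have hact : ∀ s, act a (x, s) = (x, g s) := by
    intro s
    exact Prod.ext (ha x s) rfl
  have hg : Continuous g := by
    have h2 : Continuous (fun s : ℝ => ((a, (x, s)) : ℤ_[p] × (X × ℝ))) := by fun_prop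
    exact continuous_snd.comp (hcont.comp h2)
  have hinj : Function.Injective g := by
    intro s s' h
    have h1 : act a (x, s) = act a (x, s') := by rw [hact, hact, h]
    have h2 := congrArg (act (-a)) h1
    rw [← hadd, ← hadd, neg_add_cancel, h0, h0] at h2
    exact (Prod.ext_iff.mp h2).2
  have hiter : ∀ m : ℕ, ∀ s, act ((m : ℤ_[p]) * (a + a)) (x, s) = (x, (g ∘ g)^[m] s) := by
    intro m
    induction m with
    | zero => intro s; simp [h0]
    | succ k ih =>
      intro s
      have h1 : ((k + 1 : ℕ) : ℤ_[p]) * (a + a) = a + (a + (k : ℤ_[p]) * (a + a)) := by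
        push_cast; ring
      rw [h1, hadd, hadd, ih, hact, hact, Function.iterate_succ_apply']
      rfl
  have hlim0 : Tendsto (fun m : ℕ => act ((p : ℤ_[p]) ^ m * (a + a)) (x, t)) atTop
      (𝓝 (x, t)) := by
    have h2 : Continuous (fun c : ℤ_[p] => ((c, (x, t)) : ℤ_[p] × (X × ℝ))) := by fun_prop
    have h3 := ((hcont.comp h2).tendsto 0).comp (tendsto_pow_mul p (a + a))
    simp only [Function.comp_def, h0] at h3
    exact h3
  have hlim : Tendsto (fun m : ℕ => (g ∘ g)^[p ^ m] t) atTop (𝓝 t) := by
    have h4 := (continuous_snd.tendsto (x, t)).comp hlim0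
    refine h4.congr (fun m => ?_)
    have h5 := hiter (p ^ m) t
    push_cast at h5
    simp only [Function.comp_def] at h5 ⊢
    rw [h5]
  have hpos : ∀ m : ℕ, 1 ≤ p ^ m := fun m => Nat.one_le_pow _ _ (Fact.out : p.Prime).pos
  have hfix := injective_iterate_limit_fixed g hg hinj (fun m => p ^ m) hpos t hlim
  rw [hadd, hact, hact, hfix]

end Vale.Agent.H61.P228

namespace Vale.Agent.H61.P228

/-- An element of a continuous `ℤ_p`-action on an arbitrary space that maps an embedded
line into itself has a double acting trivially on that line. -/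
theorem invariant_line_trivial (p : ℕ) [Fact p.Prime] (M : Type*) [TopologicalSpace M]
    (act : ℤ_[p] → M → M)
    (h0 : ∀ x, act 0 x = x) (hadd : ∀ a b x, act (a + b) x = act a (act b x))
    (hcont : Continuous (fun z : ℤ_[p] × M => act z.1 z.2))
    (a : ℤ_[p]) (γ : ℝ → M) (hγ : Topology.IsEmbedding γ)
    (hmaps : Set.MapsTo (act a) (Set.range γ) (Set.range γ)) (t : ℝ) :
    act (a + a) (γ t) = γ t := by
  have hconta : Continuous (act a) := by
    have h2 : Continuous (fun x : M => ((a, x) : ℤ_[p] × M)) := by fun_prop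
    exact hcont.comp h2
  have hinja : Function.Injective (act a) := by
    intro x y h
    have h2 := congrArg (act (-a)) h
    rwa [← hadd, ← hadd, neg_add_cancel, h0, h0] at h2
  let e : ℝ ≃ₜ Set.range γ := hγ.toHomeomorph
  have he : ∀ s, ((e s : Set.range γ) : M) = γ s := fun s => rfl
  let g : ℝ → ℝ := fun s => e.symm ⟨act a (γ s), hmaps ⟨s, rfl⟩⟩
  have hgγ : ∀ s, γ (g s) = act a (γ s) := by
    intro s
    have h1 : e (g s) = ⟨act a (γ s), hmaps ⟨s, rfl⟩⟩ := e.apply_symm_apply _
    have h2 := congrArg (Subtype.val) h1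
    simpa [he] using h2
  have hg : Continuous g := by
    have h1 : Continuous (fun s : ℝ => (⟨act a (γ s), hmaps ⟨s, rfl⟩⟩ : Set.range γ)) :=
      (hconta.comp hγ.continuous).subtype_mk _
    exact e.symm.continuous.comp h1
  have hinj : Function.Injective g := by
    intro s s' h
    have h1 : act a (γ s) = act a (γ s') := by rw [← hgγ, ← hgγ, h]
    exact hγ.injective (hinja h1)
  have hiter : ∀ m : ℕ, ∀ s, act ((m : ℤ_[p]) * (a + a)) (γ s) = γ ((g ∘ g)^[m] s) := by
    intro m
    induction m with
    | zero => intro s; simp [h0]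
    | succ k ih =>
      intro s
      have h1 : ((k + 1 : ℕ) : ℤ_[p]) * (a + a) = a + (a + (k : ℤ_[p]) * (a + a)) := by
        push_cast; ring
      rw [h1, hadd, hadd, ih, ← hgγ, ← hgγ, Function.iterate_succ_apply']
      rfl
  have hlim0 : Tendsto (fun m : ℕ => act ((p : ℤ_[p]) ^ m * (a + a)) (γ t)) atTop
      (𝓝 (γ t)) := by
    have h2 : Continuous (fun c : ℤ_[p] => ((c, γ t) : ℤ_[p] × M)) := by fun_prop
    have h3 := ((hcont.comp h2).tendsto 0).comp (tendsto_pow_mul p (a + a))
    simp only [Function.comp_def, h0] at h3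
    exact h3
  have hlim : Tendsto (fun m : ℕ => (g ∘ g)^[p ^ m] t) atTop (𝓝 t) := by
    rw [hγ.isInducing.tendsto_nhds_iff]
    refine hlim0.congr (fun m => ?_)
    have h5 := hiter (p ^ m) t
    push_cast at h5
    simp only [Function.comp_def] at h5 ⊢
    rw [h5]
  have hpos : ∀ m : ℕ, 1 ≤ p ^ m := fun m => Nat.one_le_pow _ _ (Fact.out : p.Prime).pos
  have hfix := injective_iterate_limit_fixed g hg hinj (fun m => p ^ m) hpos t hlim
  rw [hadd, ← hgγ, ← hgγ, hfix]

end Vale.Agent.H61.P228
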